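import Vale.Agent.H1.LT2.FBase

/-!
P371, row TR: Klein's inequality, `trPow` as a functional calculus trace, and the chain rule for
`tr (X log X - X)`.
-/

open MeasureTheory Matrix Set Topology Filter
open scoped ENNReal ComplexOrder

namespace Vale.LT2

open Vale.LT (trPow IsH1 IsPotential NegSystem LTconst Lone)

variable {N : ℕ}

theorem trPow_eq_sum (p : ℝ) (A : Mat N) (hA : A.IsHermitian) :
    trPow p A = ∑ i, (hA.eigenvalues i) ^ p := by
  rw [Vale.LT.trPow_eq_trFun, Vale.LT.trFun_of_isHermitian _ hA]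

theorem cfc_eq_conj (f : ℝ → ℝ) {X : Mat N} (hX : X.IsHermitian) :
    cfc f X = (hX.eigenvectorUnitary : Mat N) *
      diagonal (fun i => ((f (hX.eigenvalues i) : ℝ) : ℂ)) *
      star (hX.eigenvectorUnitary : Mat N) := by
  rw [hX.cfc_eq, Matrix.IsHermitian.cfc, Unitary.conjStarAlgAut_apply]
  rfl

/-- overlap weights of two eigenbases -/
noncomputable def ovl {X Y : Mat N} (hX : X.IsHermitian) (hY : Y.IsHermitian) (i j : Fin N) : ℝ :=
  ‖(star (hX.eigenvectorUnitary : Mat N) * (hY.eigenvectorUnitary : Mat N)) i j‖ ^ 2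

theorem ovl_nonneg {X Y : Mat N} (hX : X.IsHermitian) (hY : Y.IsHermitian) (i j : Fin N) :
    0 ≤ ovl hX hY i j := by unfold ovl; positivity

theorem ovl_row {X Y : Mat N} (hX : X.IsHermitian) (hY : Y.IsHermitian) (i : Fin N) :
    ∑ j, ovl hX hY i j = 1 := by
  unfold ovl
  set U : Mat N := (hX.eigenvectorUnitary : Mat N)
  set V : Mat N := (hY.eigenvectorUnitary : Mat N)
  have hUU' : star U * U = 1 := Vale.LT.unitary_star_mul _
  have hVV : V * star V = 1 := Vale.LT.unitary_mul_star _
  have hQQ : (star U * V) * star (star U * V) = 1 := by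
    rw [star_mul, star_star]
    calc star U * V * (star V * U) = star U * (V * star V) * U := by simp only [mul_assoc]
      _ = 1 := by rw [hVV, mul_one, hUU']
  have h1 : ((star U * V) * star (star U * V)) i i = 1 := by rw [hQQ]; simp
  rw [mul_apply] at h1
  have h2 : ∀ j, (star U * V) i j * (star (star U * V)) j i
      = ((‖(star U * V) i j‖ ^ 2 : ℝ) : ℂ) := by
    intro j
    rw [star_apply, Complex.star_def, Complex.mul_conj, Complex.normSq_eq_norm_sq]
  simp_rw [h2] at h1
  exact_mod_cast h1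

theorem ovl_col {X Y : Mat N} (hX : X.IsHermitian) (hY : Y.IsHermitian) (j : Fin N) :
    ∑ i, ovl hX hY i j = 1 := by
  unfold ovl
  set U : Mat N := (hX.eigenvectorUnitary : Mat N)
  set V : Mat N := (hY.eigenvectorUnitary : Mat N)
  have hUU : U * star U = 1 := Vale.LT.unitary_mul_star _
  have hVV' : star V * V = 1 := Vale.LT.unitary_star_mul _
  have hQQ' : star (star U * V) * (star U * V) = 1 := by
    rw [star_mul, star_star]
    calc star V * U * (star U * V) = star V * (U * star U) * V := by simp only [mul_assoc]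
      _ = 1 := by rw [hUU, mul_one, hVV']
  have h1 : (star (star U * V) * (star U * V)) j j = 1 := by rw [hQQ']; simp
  rw [mul_apply] at h1
  have h2 : ∀ i, (star (star U * V)) j i * (star U * V) i j
      = ((‖(star U * V) i j‖ ^ 2 : ℝ) : ℂ) := by
    intro i
    rw [star_apply, Complex.star_def, mul_comm, Complex.mul_conj, Complex.normSq_eq_norm_sq]
  simp_rw [h2] at h1
  exact_mod_cast h1

theorem tp_cfc_cfc (f g : ℝ → ℝ) {X Y : Mat N} (hX : X.IsHermitian) (hY : Y.IsHermitian) :
    tp (cfc f X) (cfc g Y) = ∑ i, ∑ j, ovl hX hY i j * (f (hX.eigenvalues i) *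
      g (hY.eigenvalues j)) := by
  unfold ovl tp
  rw [cfc_eq_conj f hX, cfc_eq_conj g hY]
  set U : Mat N := (hX.eigenvectorUnitary : Mat N) with hU
  set V : Mat N := (hY.eigenvectorUnitary : Mat N) with hV
  set l := hX.eigenvalues with hl
  set k := hY.eigenvalues with hk
  set Q : Mat N := star U * V with hQ
  have hUU : U * star U = 1 := Vale.LT.unitary_mul_star _
  have hUU' : star U * U = 1 := Vale.LT.unitary_star_mul _
  have e3 : U * diagonal (fun i => ((f (l i) : ℝ) : ℂ)) * star U *
      (V * diagonal (fun i => ((g (k i) : ℝ) : ℂ)) * star V)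
      = U * (diagonal (fun i => ((f (l i) : ℝ) : ℂ)) *
      (Q * diagonal (fun i => ((g (k i) : ℝ) : ℂ)) * star Q)) * star U := by
    rw [hQ, star_mul, star_star]
    calc U * diagonal (fun i => ((f (l i) : ℝ) : ℂ)) * star U *
        (V * diagonal (fun i => ((g (k i) : ℝ) : ℂ)) * star V)
        = U * diagonal (fun i => ((f (l i) : ℝ) : ℂ)) * star U *
        (V * diagonal (fun i => ((g (k i) : ℝ) : ℂ)) * star V) * (U * star U) := by
          rw [hUU, mul_one]
      _ = _ := by simp only [mul_assoc]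
  have hT : (U * diagonal (fun i => ((f (l i) : ℝ) : ℂ)) * star U *
      (V * diagonal (fun i => ((g (k i) : ℝ) : ℂ)) * star V)).trace
      = ∑ i, ∑ j, (((‖Q i j‖ ^ 2 * (f (l i) * g (k j))) : ℝ) : ℂ) := by
    rw [e3, Matrix.trace_mul_cycle, hUU', one_mul, Matrix.trace]
    refine Finset.sum_congr rfl fun i _ => ?_
    rw [diag_apply, diagonal_mul, mul_apply, Finset.mul_sum]
    refine Finset.sum_congr rfl fun j _ => ?_
    rw [mul_diagonal, star_apply, Complex.star_def]
    have : Q i j * ((g (k j) : ℝ) : ℂ) * (starRingEnd ℂ) (Q i j)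
        = ((‖Q i j‖ ^ 2 : ℝ) : ℂ) * ((g (k j) : ℝ) : ℂ) := by
      rw [mul_right_comm, Complex.mul_conj, Complex.normSq_eq_norm_sq]
    rw [this]
    push_cast
    ring
  rw [hT]
  rw [← Complex.ofReal_re (∑ i, ∑ j, ‖Q i j‖ ^ 2 * (f (l i) * g (k j)))]
  congr 1
  push_cast
  rfl

theorem trace_cfc_re (f : ℝ → ℝ) {X : Mat N} (hX : X.IsHermitian) :
    ((cfc f X).trace).re = ∑ i, f (hX.eigenvalues i) := by
  rw [cfc_eq_conj f hX, Matrix.trace_mul_cycle, Vale.LT.unitary_star_mul, one_mul, trace_diagonal]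
  rw [← Complex.ofReal_sum, Complex.ofReal_re]

theorem trPow_eq_cfc (p : ℝ) (A : Mat N) (hA : A.IsHermitian) :
    trPow p A = ((cfc (fun t : ℝ => t ^ p) A).trace).re := by
  rw [trPow_eq_sum p A hA, trace_cfc_re _ hA]

theorem tp_sub (A B C : Mat N) : tp A (B - C) = tp A B - tp A C := by
  unfold tp
  rw [mul_sub, trace_sub, Complex.sub_re]

theorem tp_add (A B C : Mat N) : tp A (B + C) = tp A B + tp A C := by
  unfold tp
  rw [mul_add, trace_add, Complex.add_re]

theorem sub_tp (A B C : Mat N) : tp (A - B) C = tp A C - tp B C := by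
  unfold tp
  rw [sub_mul, trace_sub, Complex.sub_re]

theorem cfc_id_herm {X : Mat N} (hX : X.IsHermitian) : cfc (id : ℝ → ℝ) X = X := by
  rw [cfc_eq_conj id hX]
  exact (Vale.LT.herm_decomp hX).symm

theorem tp_cfc_left (f : ℝ → ℝ) {X Y : Mat N} (hX : X.IsHermitian) (hY : Y.IsHermitian) :
    tp (cfc f X) Y = ∑ i, ∑ j, ovl hX hY i j * (f (hX.eigenvalues i) *
      hY.eigenvalues j) := by
  have h := tp_cfc_cfc f id hX hY
  rw [cfc_id_herm hY] at h
  exact h

theorem tp_cfc_self (f : ℝ → ℝ) {X : Mat N} (hX : X.IsHermitian) :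
    tp (cfc f X) X = ∑ i, f (hX.eigenvalues i) * hX.eigenvalues i := by
  have h1 : cfc f X * X = cfc (fun t => f t * t) X := by
    rw [cfc_eq_conj f hX, cfc_eq_conj (fun t => f t * t) hX]
    set U : Mat N := (hX.eigenvectorUnitary : Mat N) with hU
    have hUU' : star U * U = 1 := Vale.LT.unitary_star_mul _
    have hd : X = U * diagonal (fun i => ((hX.eigenvalues i : ℝ) : ℂ)) * star U :=
      Vale.LT.herm_decomp hX
    calc U * diagonal (fun i => ((f (hX.eigenvalues i) : ℝ) : ℂ)) * star U * X
        = U * diagonal (fun i => ((f (hX.eigenvalues i) : ℝ) : ℂ)) * star U *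
          (U * diagonal (fun i => ((hX.eigenvalues i : ℝ) : ℂ)) * star U) := by
          rw [← hd]
      _ = U * (diagonal (fun i => ((f (hX.eigenvalues i) : ℝ) : ℂ)) * ((star U * U) *
          diagonal (fun i => ((hX.eigenvalues i : ℝ) : ℂ)))) * star U := by
          simp only [mul_assoc]
      _ = _ := by
          rw [hUU', one_mul, diagonal_mul_diagonal]
          congr 3
          ext i
          push_cast
          rfl
  unfold tp
  rw [h1, trace_cfc_re _ hX]

/-- Klein's inequality for a convex function with derivative `f'` on a set `s` containing the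
spectra. -/
theorem klein (s : Set ℝ) (f f' : ℝ → ℝ)
    (hf : ∀ x ∈ s, ∀ y ∈ s, f x + f' x * (y - x) ≤ f y)
    (X Y : Mat N) (hX : X.IsHermitian) (hY : Y.IsHermitian)
    (hXs : spectrum ℝ X ⊆ s) (hYs : spectrum ℝ Y ⊆ s) :
    ((cfc f X).trace).re + tp (cfc f' X) (Y - X) ≤ ((cfc f Y).trace).re := by
  rw [tp_sub, trace_cfc_re f hX, trace_cfc_re f hY, tp_cfc_left f' hX hY]
  have h1 : tp (cfc f' X) X = ∑ i, f' (hX.eigenvalues i) * hX.eigenvalues i := tp_cfc_self f' hX
  rw [h1]
  have e1 : ∑ i, f (hX.eigenvalues i) = ∑ i, ∑ j, ovl hX hY i j * f (hX.eigenvalues i) := by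
    refine Finset.sum_congr rfl fun i _ => ?_
    rw [← Finset.sum_mul, ovl_row, one_mul]
  have e2 : ∑ j, f (hY.eigenvalues j) = ∑ i, ∑ j, ovl hX hY i j * f (hY.eigenvalues j) := by
    rw [Finset.sum_comm]
    refine Finset.sum_congr rfl fun j _ => ?_
    rw [← Finset.sum_mul, ovl_col, one_mul]
  have e3 : ∑ i, f' (hX.eigenvalues i) * hX.eigenvalues i
      = ∑ i, ∑ j, ovl hX hY i j * (f' (hX.eigenvalues i) * hX.eigenvalues i) := by
    refine Finset.sum_congr rfl fun i _ => ?_
    rw [← Finset.sum_mul, ovl_row, one_mul]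
  rw [e1, e2, e3, ← Finset.sum_sub_distrib, ← Finset.sum_add_distrib]
  refine Finset.sum_le_sum fun i _ => ?_
  rw [← Finset.sum_sub_distrib, ← Finset.sum_add_distrib]
  refine Finset.sum_le_sum fun j _ => ?_
  have hx : hX.eigenvalues i ∈ s := hXs (by
    rw [hX.spectrum_real_eq_range_eigenvalues]; exact ⟨i, rfl⟩)
  have hy : hY.eigenvalues j ∈ s := hYs (by
    rw [hY.spectrum_real_eq_range_eigenvalues]; exact ⟨j, rfl⟩)
  have := mul_le_mul_of_nonneg_left (hf _ hx _ hy) (ovl_nonneg hX hY i j)
  nlinarith [this]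

theorem tp_eq_sum (A B : Mat N) : tp A B = ∑ i, ∑ j, (A i j * B j i).re := by
  unfold tp
  rw [Matrix.trace, Complex.re_sum]
  refine Finset.sum_congr rfl fun i _ => ?_
  rw [diag_apply, mul_apply, Complex.re_sum]

theorem eta_tangent : ∀ x ∈ Ioi (0 : ℝ), ∀ y ∈ Ioi (0 : ℝ),
    (x * Real.log x - x) + Real.log x * (y - x) ≤ y * Real.log y - y := by
  intro x hx y hy
  have hx' : 0 < x := hx
  have hy' : 0 < y := hy
  have h1 := Real.log_le_sub_one_of_pos (div_pos hx' hy')
  rw [Real.log_div hx'.ne' hy'.ne'] at h1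
  have h2 : y * (Real.log x - Real.log y) ≤ y * (x / y - 1) :=
    mul_le_mul_of_nonneg_left h1 hy'.le
  have h3 : y * (x / y - 1) = x - y := by field_simp
  rw [h3] at h2
  nlinarith [h2]

theorem continuousAt_tp_cfc_log (X : ℝ → Mat N) (x : ℝ)
    (hX : ∀ᶠ y in nhds x, (X y).PosDef)
    (hc : ∀ i j, ContinuousAt (fun y => X y i j) x) (i j : Fin N) :
    ContinuousAt (fun y => cfc Real.log (X y) i j) x := by
  have hXc : ContinuousAt X x := by
    refine tendsto_pi_nhds.2 fun i => ?_
    refine tendsto_pi_nhds.2 fun j => ?_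
    exact hc i j
  have hx : (X x).PosDef := hX.self_of_nhds
  have h1 := (continuousOn_cfc_posDef (N := N) Real.log
    (Real.continuousOn_log.mono (fun t ht => ne_of_gt ht))) (X x) hx
  have h2 : Tendsto X (nhds x) (nhdsWithin (X x) {A | A.PosDef}) :=
    tendsto_nhdsWithin_iff.2 ⟨hXc, hX⟩
  have h3 : Tendsto (fun y => cfc Real.log (X y)) (nhds x) (nhds (cfc Real.log (X x))) :=
    h1.tendsto.comp h2
  have h4 := (tendsto_pi_nhds.1 h3 i)
  exact tendsto_pi_nhds.1 h4 j

/-- Chain rule for `tr (X log X - X)` along a differentiable path of positive definite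
matrices. -/
theorem hasDerivAt_eta (X : ℝ → Mat N) (X' : Mat N) (x : ℝ)
    (hX : ∀ᶠ y in nhds x, (X y).PosDef)
    (hd : ∀ i j, HasDerivAt (fun y => X y i j) (X' i j) x) :
    HasDerivAt (fun y => ((cfc (fun t : ℝ => t * Real.log t - t) (X y)).trace).re)
      (tp (cfc Real.log (X x)) X') x := by
  set F : ℝ → ℝ := fun y => ((cfc (fun t : ℝ => t * Real.log t - t) (X y)).trace).re with hF
  have hx : (X x).PosDef := hX.self_of_nhds
  have hc : ∀ i j, ContinuousAt (fun y => X y i j) x := fun i j => (hd i j).continuousAt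
  have hlog := continuousAt_tp_cfc_log X x hX hc
  -- linear part
  have hlin : ∀ A : Mat N, HasDerivAt (fun y => tp A (X y)) (tp A X') x := by
    intro A
    have h1 : (fun y => tp A (X y)) = fun y => ∑ i, ∑ j, (A i j * X y j i).re := by
      funext y; exact tp_eq_sum _ _
    rw [h1, tp_eq_sum]
    refine HasDerivAt.fun_sum fun i _ => HasDerivAt.fun_sum fun j _ => ?_
    have h2 : HasDerivAt (fun y => A i j * X y j i) (A i j * X' j i) x :=
      (hd j i).const_mul _
    exact (Complex.reCLM.hasFDerivAt.comp_hasDerivAt x h2)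
  have hlow : ∀ᶠ y in nhds x, tp (cfc Real.log (X x)) (X y - X x) ≤ F y - F x := by
    filter_upwards [hX] with y hy
    have := klein (Ioi 0) (fun t => t * Real.log t - t) Real.log eta_tangent (X x) (X y)
      hx.isHermitian hy.isHermitian (fun t ht => spectrum_pos_of_posDef hx t ht)
      (fun t ht => spectrum_pos_of_posDef hy t ht)
    simp only [hF]
    linarith
  have hup : ∀ᶠ y in nhds x, F y - F x ≤ tp (cfc Real.log (X y)) (X y - X x) := by
    filter_upwards [hX] with y hy
    have := klein (Ioi 0) (fun t => t * Real.log t - t) Real.log eta_tangent (X y) (X x)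
      hy.isHermitian hx.isHermitian (fun t ht => spectrum_pos_of_posDef hy t ht)
      (fun t ht => spectrum_pos_of_posDef hx t ht)
    simp only [hF]
    rw [tp_sub] at this ⊢
    linarith
  have hXO : ∀ i j, (fun y => X y i j - X x i j) =O[nhds x] fun y => y - x :=
    fun i j => (hd i j).isBigO_sub
  have hsmall : (fun y => tp (cfc Real.log (X y) - cfc Real.log (X x)) (X y - X x))
      =o[nhds x] fun y => y - x := by
    have h1 : (fun y => tp (cfc Real.log (X y) - cfc Real.log (X x)) (X y - X x))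
        = fun y => ∑ i, ∑ j, ((cfc Real.log (X y) i j - cfc Real.log (X x) i j) *
          (X y j i - X x j i)).re := by
      funext y; rw [tp_eq_sum]; rfl
    rw [h1]
    refine Asymptotics.IsLittleO.fun_sum fun i _ => ?_
    refine Asymptotics.IsLittleO.fun_sum fun j _ => ?_
    have h2 : (fun y => cfc Real.log (X y) i j - cfc Real.log (X x) i j)
        =o[nhds x] fun _ => (1 : ℝ) := by
      rw [Asymptotics.isLittleO_one_iff]
      have := (hlog i j).tendsto.sub_const (cfc Real.log (X x) i j)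
      rwa [sub_self] at this
    have h3 : (fun y => (cfc Real.log (X y) i j - cfc Real.log (X x) i j) *
        (X y j i - X x j i)) =o[nhds x] fun y => (1 : ℝ) * (y - x) :=
      h2.mul_isBigO (hXO j i)
    simp only [one_mul] at h3
    refine Asymptotics.IsBigO.trans_isLittleO ?_ h3
    exact Asymptotics.IsBigO.of_bound 1 (Eventually.of_forall fun y => by
      rw [one_mul]; exact Complex.abs_re_le_norm _)
  rw [hasDerivAt_iff_isLittleO]
  have hlin' := (hasDerivAt_iff_isLittleO.1 (hlin (cfc Real.log (X x))))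
  have hkey : (fun y => F y - F x - tp (cfc Real.log (X x)) (X y - X x))
      =o[nhds x] fun y => y - x := by
    refine Asymptotics.IsBigO.trans_isLittleO ?_ hsmall
    refine Asymptotics.IsBigO.of_bound 1 ?_
    filter_upwards [hlow, hup] with y h1 h2
    rw [one_mul, Real.norm_eq_abs, Real.norm_eq_abs, sub_tp, abs_of_nonneg (by linarith),
      abs_of_nonneg (by linarith)]
    linarith
  have : (fun y => F y - F x - (y - x) • tp (cfc Real.log (X x)) X')
      = fun y => (F y - F x - tp (cfc Real.log (X x)) (X y - X x)) +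
        (tp (cfc Real.log (X x)) (X y) - tp (cfc Real.log (X x)) (X x) -
          (y - x) • tp (cfc Real.log (X x)) X') := by
    funext y
    rw [tp_sub]
    ring
  rw [this]
  exact hkey.add hlin'

end Vale.LT2
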