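import Vale.Agent.H19.LT2.TR
import Vale.Agent.H22.LT2K
import Vale.Agent.H25.LT2J

/-!
P371, row R: the integrated inequality along a Riccati path.
-/

open MeasureTheory Matrix Set Topology Filter
open scoped ENNReal ComplexOrder

namespace Vale.LT2

open Vale.LT (trPow IsH1 IsPotential NegSystem LTconst Lone)

variable {N : ℕ}

namespace RRow

/-- `η(t) = t log t - t`. -/
noncomputable def eta (t : ℝ) : ℝ := t * Real.log t - t

/-- `v_l(M) = tr η(K_l+M) - tr η(K_l-M) - log l tr M`. -/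
noncomputable def vl (K : Mat N) (l : ℝ) (X : Mat N) : ℝ :=
  ((cfc eta (Kl K l + X)).trace).re - ((cfc eta (Kl K l - X)).trace).re
    - Real.log l * (X.trace).re

theorem continuous_eta : Continuous eta := by
  unfold eta
  exact Real.continuous_mul_log.sub continuous_id

theorem vl_neg (K : Mat N) (l : ℝ) (X : Mat N) : vl K l (-X) = - vl K l X := by
  unfold vl
  rw [← sub_eq_add_neg, sub_neg_eq_add, trace_neg, Complex.neg_re]
  ring

theorem tp_neg_right (A B : Mat N) : tp A (-B) = - tp A B := by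
  unfold tp
  rw [mul_neg, trace_neg, Complex.neg_re]

theorem tp_Dl (K M X : Mat N) (l : ℝ) :
    tp (Dl K M l) X = tp (cfc Real.log (Kl K l + M)) X + tp (cfc Real.log (Kl K l - M)) X
      - Real.log l * (X.trace).re := by
  unfold tp Dl Ll
  rw [sub_mul, add_mul, trace_sub, trace_add, Complex.sub_re, Complex.add_re, smul_mul_assoc,
    one_mul, trace_smul, smul_eq_mul, Complex.re_ofReal_mul]

theorem hasDerivAt_vl (K : Mat N) (hK : K.PosDef) (l : ℝ) (hl : 0 < l) (M : ℝ → Mat N)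
    (M' : Mat N) (x : ℝ) (hb : ∀ᶠ y in nhds x, Between K (M y))
    (hd : ∀ i j, HasDerivAt (fun y => M y i j) (M' i j) x) :
    HasDerivAt (fun y => vl K l (M y)) (tp (Dl K (M x) l) M') x := by
  have h1 := hasDerivAt_eta (fun y => Kl K l + M y) M' x
    (hb.mono fun y hy => (Kl_posDef K (M y) hK hy l hl).1)
    (fun i j => by
      have := (hd i j).const_add (Kl K l i j)
      exact this)
  have h2 := hasDerivAt_eta (fun y => Kl K l - M y) (-M') x
    (hb.mono fun y hy => (Kl_posDef K (M y) hK hy l hl).2)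
    (fun i j => by
      have := (hd i j).const_sub (Kl K l i j)
      exact this)
  have h3 : HasDerivAt (fun y => ((M y).trace).re) ((M'.trace).re) x := by
    have e1 : (fun y => ((M y).trace).re) = fun y => ∑ i, (M y i i).re := by
      funext y; rw [Matrix.trace, Complex.re_sum]; rfl
    have e2 : (M'.trace).re = ∑ i, (M' i i).re := by
      rw [Matrix.trace, Complex.re_sum]; rfl
    rw [e1, e2]
    refine HasDerivAt.fun_sum fun i _ => ?_
    exact (Complex.reCLM.hasFDerivAt.comp_hasDerivAt x (hd i i))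
  have h4 := (h1.sub h2).sub (h3.const_mul (Real.log l))
  rw [tp_neg_right] at h4
  have h5 : tp (Dl K (M x) l) M' = tp (cfc Real.log (Kl K l + M x)) M' -
      -tp (cfc Real.log (Kl K l - M x)) M' - Real.log l * (M'.trace).re := by
    rw [tp_Dl]; ring
  rw [h5]
  exact h4

theorem Kl_add_self (K : Mat N) (hK : K.PosDef) (l : ℝ) :
    Kl K l + K = cfc (fun t : ℝ => √(t ^ 2 + l) + t) K := by
  have hs : IsSelfAdjoint K := hK.isHermitian
  have h1 : cfc (fun t : ℝ => t) K = K := cfc_id' ℝ K hs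
  have h2 : cfc (fun t : ℝ => √(t ^ 2 + l) + t) K
      = cfc (fun t : ℝ => √(t ^ 2 + l)) K + cfc (fun t : ℝ => t) K :=
    cfc_add K (fun t : ℝ => √(t ^ 2 + l)) (fun t : ℝ => t)
      (by fun_prop) (by fun_prop)
  rw [h2, h1]
  rfl

theorem Kl_sub_self (K : Mat N) (hK : K.PosDef) (l : ℝ) :
    Kl K l - K = cfc (fun t : ℝ => √(t ^ 2 + l) - t) K := by
  have hs : IsSelfAdjoint K := hK.isHermitian
  have h1 : cfc (fun t : ℝ => t) K = K := cfc_id' ℝ K hs
  have h2 : cfc (fun t : ℝ => √(t ^ 2 + l) - t) K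
      = cfc (fun t : ℝ => √(t ^ 2 + l)) K - cfc (fun t : ℝ => t) K :=
    cfc_sub (fun t : ℝ => √(t ^ 2 + l)) (fun t : ℝ => t) K
      (by fun_prop) (by fun_prop)
  rw [h2, h1]
  rfl

theorem trace_re_eq (K : Mat N) (hK : K.IsHermitian) : (K.trace).re = ∑ i, hK.eigenvalues i := by
  have h := trace_cfc_re id hK
  rw [cfc_id_herm hK] at h
  exact h

theorem vl_self (K : Mat N) (hK : K.PosDef) (l : ℝ) :
    vl K l K = ∑ i, (eta (√((hK.isHermitian.eigenvalues i) ^ 2 + l) + hK.isHermitian.eigenvalues i)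
      - eta (√((hK.isHermitian.eigenvalues i) ^ 2 + l) - hK.isHermitian.eigenvalues i)
      - Real.log l * hK.isHermitian.eigenvalues i) := by
  have hs : IsSelfAdjoint K := hK.isHermitian
  unfold vl
  rw [Kl_add_self K hK l, Kl_sub_self K hK l]
  rw [← cfc_comp' eta (fun t : ℝ => √(t ^ 2 + l) + t) K continuous_eta.continuousOn
    (by fun_prop) hs]
  rw [← cfc_comp' eta (fun t : ℝ => √(t ^ 2 + l) - t) K continuous_eta.continuousOn
    (by fun_prop) hs]
  rw [trace_cfc_re _ hK.isHermitian, trace_cfc_re _ hK.isHermitian,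
    trace_re_eq K hK.isHermitian, Finset.mul_sum, ← Finset.sum_sub_distrib,
    ← Finset.sum_sub_distrib]

/-- the boundary term for `l > 0` -/
theorem two_vl_self (K : Mat N) (hK : K.PosDef) (l : ℝ) (hl : 0 < l) :
    2 * vl K l K = ∑ i, ∫ t in (-(hK.isHermitian.eigenvalues i))..(hK.isHermitian.eigenvalues i),
      Real.log (1 + ((hK.isHermitian.eigenvalues i) ^ 2 - t ^ 2) / l) := by
  rw [vl_self K hK l, Finset.mul_sum]
  refine Finset.sum_congr rfl fun i _ => ?_
  rw [← boundary_scalar _ l (hK.eigenvalues_pos i) hl]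
  unfold eta
  ring

theorem continuous_Kl (K : Mat N) (hK : K.PosDef) : Continuous (fun l : ℝ => Kl K l) := by
  have h : (fun l : ℝ => Kl K l) = fun l : ℝ =>
      (hK.isHermitian.eigenvectorUnitary : Mat N) *
      diagonal (fun i => ((√((hK.isHermitian.eigenvalues i) ^ 2 + l) : ℝ) : ℂ)) *
      star (hK.isHermitian.eigenvectorUnitary : Mat N) := by
    funext l
    exact cfc_eq_conj _ hK.isHermitian
  rw [h]
  refine (continuous_const.matrix_mul (Continuous.matrix_diagonal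
    (continuous_pi fun i => ?_))).matrix_mul continuous_const
  exact Complex.continuous_ofReal.comp
    (Real.continuous_sqrt.comp (continuous_const.add continuous_id))

section path
variable {K : Mat N} {M : ℝ → Mat N} {S : Set ℝ}

theorem contOn_add (hK : K.PosDef) (hMc : ∀ i j, ContinuousOn (fun x => M x i j) S) :
    ContinuousOn (fun p : ℝ × ℝ => Kl K p.2 + M p.1) (S ×ˢ (Ioi (0:ℝ))) := by
  have h1 : ContinuousOn M S := continuousOn_pi.2 fun i => continuousOn_pi.2 fun j => hMc i j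
  exact ((continuous_Kl K hK).comp continuous_snd).continuousOn.add
    (h1.comp continuous_fst.continuousOn (fun p hp => hp.1))

theorem contOn_sub (hK : K.PosDef) (hMc : ∀ i j, ContinuousOn (fun x => M x i j) S) :
    ContinuousOn (fun p : ℝ × ℝ => Kl K p.2 - M p.1) (S ×ˢ (Ioi (0:ℝ))) := by
  have h1 : ContinuousOn M S := continuousOn_pi.2 fun i => continuousOn_pi.2 fun j => hMc i j
  exact ((continuous_Kl K hK).comp continuous_snd).continuousOn.sub
    (h1.comp continuous_fst.continuousOn (fun p hp => hp.1))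

theorem contOn_cfc_add (hK : K.PosDef) (hMc : ∀ i j, ContinuousOn (fun x => M x i j) S)
    (hb : ∀ x ∈ S, Between K (M x)) (f : ℝ → ℝ) (hf : ContinuousOn f (Ioi 0)) :
    ContinuousOn (fun p : ℝ × ℝ => cfc f (Kl K p.2 + M p.1)) (S ×ˢ (Ioi (0:ℝ))) :=
  (continuousOn_cfc_posDef (N := N) f hf).comp (contOn_add hK hMc)
    (fun p hp => (Kl_posDef K (M p.1) hK (hb p.1 hp.1) p.2 hp.2).1)

theorem contOn_cfc_sub (hK : K.PosDef) (hMc : ∀ i j, ContinuousOn (fun x => M x i j) S)
    (hb : ∀ x ∈ S, Between K (M x)) (f : ℝ → ℝ) (hf : ContinuousOn f (Ioi 0)) :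
    ContinuousOn (fun p : ℝ × ℝ => cfc f (Kl K p.2 - M p.1)) (S ×ˢ (Ioi (0:ℝ))) :=
  (continuousOn_cfc_posDef (N := N) f hf).comp (contOn_sub hK hMc)
    (fun p hp => (Kl_posDef K (M p.1) hK (hb p.1 hp.1) p.2 hp.2).2)

theorem contOn_log : ContinuousOn Real.log (Ioi 0) :=
  Real.continuousOn_log.mono (fun _ ht => ne_of_gt ht)

theorem contOn_Dl (hK : K.PosDef) (hMc : ∀ i j, ContinuousOn (fun x => M x i j) S)
    (hb : ∀ x ∈ S, Between K (M x)) :
    ContinuousOn (fun p : ℝ × ℝ => Dl K (M p.1) p.2) (S ×ˢ (Ioi (0:ℝ))) := by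
  unfold Dl Ll
  refine ((contOn_cfc_add hK hMc hb Real.log contOn_log).add
    (contOn_cfc_sub hK hMc hb Real.log contOn_log)).sub ?_
  have hlog : ContinuousOn (fun p : ℝ × ℝ => ((Real.log p.2 : ℝ) : ℂ)) (S ×ˢ (Ioi (0:ℝ))) :=
    Complex.continuous_ofReal.comp_continuousOn
      (contOn_log.comp continuous_snd.continuousOn (fun p hp => hp.2))
  exact hlog.smul continuousOn_const

theorem continuousOn_tp {X : Type*} [TopologicalSpace X] {T : Set X} {A B : X → Mat N}
    (hA : ContinuousOn A T) (hB : ContinuousOn B T) :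
    ContinuousOn (fun x => tp (A x) (B x)) T := by
  have h : (fun x => tp (A x) (B x)) = fun x => ∑ i, ∑ j, (A x i j * B x j i).re := by
    funext x; exact tp_eq_sum _ _
  rw [h]
  refine continuousOn_finsetSum _ fun i _ => continuousOn_finsetSum _ fun j _ => ?_
  have h1 : ContinuousOn (fun x => A x i j) T := (continuousOn_pi.1 (continuousOn_pi.1 hA i)) j
  have h2 : ContinuousOn (fun x => B x j i) T := (continuousOn_pi.1 (continuousOn_pi.1 hB j)) i
  exact Complex.continuous_re.comp_continuousOn (h1.mul h2)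

theorem contOn_tp_Dl (hK : K.PosDef) (hMc : ∀ i j, ContinuousOn (fun x => M x i j) S)
    (hb : ∀ x ∈ S, Between K (M x)) (W : ℝ → Mat N)
    (hW : ∀ i j, ContinuousOn (fun x => W x i j) S) :
    ContinuousOn (fun p : ℝ × ℝ => tp (Dl K (M p.1) p.2) (W p.1)) (S ×ˢ (Ioi (0:ℝ))) := by
  have h1 : ContinuousOn W S := continuousOn_pi.2 fun i => continuousOn_pi.2 fun j => hW i j
  have h2 : ContinuousOn (fun p : ℝ × ℝ => W p.1) (S ×ˢ (Ioi (0:ℝ))) :=
    h1.comp continuous_fst.continuousOn (fun p hp => hp.1)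
  exact continuousOn_tp (contOn_Dl hK hMc hb) h2

theorem contOn_tp_Dl_fix (hK : K.PosDef) (hMc : ∀ i j, ContinuousOn (fun x => M x i j) S)
    (hb : ∀ x ∈ S, Between K (M x)) (W : ℝ → Mat N)
    (hW : ∀ i j, ContinuousOn (fun x => W x i j) S) (l : ℝ) (hl : 0 < l) :
    ContinuousOn (fun x : ℝ => tp (Dl K (M x) l) (W x)) S :=
  (contOn_tp_Dl hK hMc hb W hW).comp (f := fun x : ℝ => (x, l))
    (continuous_id.prodMk continuous_const).continuousOn (fun _ hx => ⟨hx, hl⟩)

theorem contOn_vl (hK : K.PosDef) (hMc : ∀ i j, ContinuousOn (fun x => M x i j) S)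
    (hb : ∀ x ∈ S, Between K (M x)) (l : ℝ) (hl : 0 < l) :
    ContinuousOn (fun x : ℝ => vl K l (M x)) S := by
  have h1 : ContinuousOn M S := continuousOn_pi.2 fun i => continuousOn_pi.2 fun j => hMc i j
  have hp : ContinuousOn (fun x : ℝ => (x, l)) S :=
    (continuous_id.prodMk continuous_const).continuousOn
  have ha := (contOn_cfc_add hK hMc hb eta continuous_eta.continuousOn).comp hp
    (fun x hx => ⟨hx, hl⟩)
  have hs := (contOn_cfc_sub hK hMc hb eta continuous_eta.continuousOn).comp hp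
    (fun x hx => ⟨hx, hl⟩)
  have htr : Continuous (fun A : Mat N => (A.trace).re) :=
    Complex.continuous_re.comp continuous_id.matrix_trace
  unfold vl
  exact ((htr.comp_continuousOn ha).sub (htr.comp_continuousOn hs)).sub
    (continuousOn_const.mul (htr.comp_continuousOn h1))

end path

theorem tp_smul_right (c : ℝ) (A B : Mat N) : tp A ((c : ℂ) • B) = c * tp A B := by
  unfold tp
  rw [mul_smul_comm, trace_smul, smul_eq_mul, Complex.re_ofReal_mul]

theorem path_identity (α L : ℝ) (hL : 0 < L) (K : Mat N) (Z M : ℝ → Mat N)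
    (hZc : ∀ i j, Continuous (fun x => Z x i j))
    (hM : RicPath L K (fun x => ((1 + 1 / α : ℝ) : ℂ) • Z x) M) (l : ℝ) (hl : 0 < l) :
    ∫ x in (-L)..L, ((1 + 1 / α) * tp (Dl K (M x) l) (Z x)
      - tp (Dl K (M x) l) (K * K - M x * M x)) = 2 * vl K l K := by
  have hK := hM.posDef
  have hle : -L ≤ L := by linarith
  have hZ' : ∀ i j, ContinuousOn (fun x => Z x i j) (Icc (-L) L) :=
    fun i j => (hZc i j).continuousOn
  have hEc : ∀ i j, ContinuousOn (fun x => (K * K - M x * M x) i j) (Icc (-L) L) := by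
    intro i j
    have h1 : ∀ x, (K * K - M x * M x) i j = (K * K) i j - ∑ k, M x i k * M x k j := by
      intro x; rw [Matrix.sub_apply, mul_apply (M := M x)]
    simp only [h1]
    refine continuousOn_const.sub (continuousOn_finsetSum _ fun k _ => ?_)
    exact (hM.cont i k).mul (hM.cont k j)
  have hc1 := contOn_tp_Dl_fix hK hM.cont hM.between Z hZ' l hl
  have hc2 := contOn_tp_Dl_fix hK hM.cont hM.between (fun x => K * K - M x * M x) hEc l hl
  set G : ℝ → ℝ := fun x => (1 + 1 / α) * tp (Dl K (M x) l) (Z x)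
      - tp (Dl K (M x) l) (K * K - M x * M x) with hG
  have hGc : ContinuousOn G (Icc (-L) L) := (continuousOn_const.mul hc1).sub hc2
  have hderiv : ∀ x ∈ Ioo (-L) L, HasDerivAt (fun y => vl K l (M y)) (-(G x)) x := by
    intro x hx
    have hb : ∀ᶠ y in nhds x, Between K (M y) := by
      filter_upwards [Ioo_mem_nhds hx.1 hx.2] with y hy
      exact hM.between y ⟨hy.1.le, hy.2.le⟩
    have h1 := hasDerivAt_vl K hK l hl M
      (K * K - M x * M x - ((1 + 1 / α : ℝ) : ℂ) • Z x) x hb (hM.deriv x hx)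
    have h2 : tp (Dl K (M x) l) (K * K - M x * M x - ((1 + 1 / α : ℝ) : ℂ) • Z x) = -(G x) := by
      rw [tp_sub, tp_smul_right, hG]
      ring
    rw [h2] at h1
    exact h1
  have hint : IntervalIntegrable (fun x => -(G x)) volume (-L) L :=
    (hGc.neg).intervalIntegrable_of_Icc hle
  have hftc := intervalIntegral.integral_eq_sub_of_hasDerivAt_of_le hle
    (contOn_vl hK hM.cont hM.between l hl) hderiv hint
  rw [hM.left, hM.right, vl_neg, intervalIntegral.integral_neg] at hftc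
  linarith

/-- joint integrand on `(x, l)` -/
noncomputable def GG (α : ℝ) (K : Mat N) (Z M : ℝ → Mat N) (x l : ℝ) : ℝ :=
  l ^ (α - 1) * ((1 + 1 / α) * tp (Dl K (M x) l) (Z x)
      - tp (Dl K (M x) l) (K * K - M x * M x))

theorem integral_GG_x (α L : ℝ) (hL : 0 < L) (K : Mat N) (Z M : ℝ → Mat N)
    (hZc : ∀ i j, Continuous (fun x => Z x i j))
    (hM : RicPath L K (fun x => ((1 + 1 / α : ℝ) : ℂ) • Z x) M) (l : ℝ) (hl : 0 < l) :
    ∫ x in Ioc (-L) L, GG α K Z M x l
      = ∑ i, l ^ (α - 1) * ∫ t in (-(hM.posDef.isHermitian.eigenvalues i))..(hM.posDef.isHermitian.eigenvalues i),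
      Real.log (1 + ((hM.posDef.isHermitian.eigenvalues i) ^ 2 - t ^ 2) / l) := by
  have hle : -L ≤ L := by linarith
  have h1 := path_identity α L hL K Z M hZc hM l hl
  rw [two_vl_self K hM.posDef l hl, intervalIntegral.integral_of_le hle] at h1
  unfold GG
  rw [integral_const_mul, h1, Finset.mul_sum]

theorem abs_tp_le (A B : Mat N) (c b : ℝ) (hA : ∀ i j, ‖A i j‖ ≤ c) (hB : ∀ i j, ‖B i j‖ ≤ b)
    (hc : 0 ≤ c) : |tp A B| ≤ (N : ℝ) * (N : ℝ) * (c * b) := by
  rw [tp_eq_sum]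
  refine (Finset.abs_sum_le_sum_abs _ _).trans ?_
  have h1 : ∀ i : Fin N, |∑ j, (A i j * B j i).re| ≤ ∑ j : Fin N, c * b := by
    intro i
    refine (Finset.abs_sum_le_sum_abs _ _).trans (Finset.sum_le_sum fun j _ => ?_)
    refine (Complex.abs_re_le_norm _).trans ?_
    rw [norm_mul]
    exact mul_le_mul (hA i j) (hB j i) (norm_nonneg _) hc
  refine (Finset.sum_le_sum fun i _ => h1 i).trans (le_of_eq ?_)
  rw [Finset.sum_const, Finset.sum_const, Finset.card_univ, Fintype.card_fin, nsmul_eq_mul,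
    nsmul_eq_mul]
  ring

theorem rpow_log_bound (α : ℝ) (h0 : 0 < α) (l : ℝ) (hl : l ∈ Ioc (0:ℝ) 1) :
    l ^ (α - 1) * (1 + |Real.log l|) ≤ (1 + 2 / α) * l ^ (α / 2 - 1) := by
  have hl0 : 0 < l := hl.1
  have h1 : l ^ (α - 1) ≤ l ^ (α / 2 - 1) :=
    Real.rpow_le_rpow_of_exponent_ge hl0 hl.2 (by linarith)
  have h2 := (Real.abs_log_mul_self_rpow_lt l (α / 2) hl0 hl.2 (by linarith)).le
  have h3 : l ^ (α - 1) * |Real.log l| = |Real.log l * l ^ (α / 2)| * l ^ (α / 2 - 1) := by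
    rw [abs_mul, abs_of_nonneg (Real.rpow_nonneg hl0.le (α / 2)), mul_assoc,
      ← Real.rpow_add hl0, mul_comm]
    congr 2
    ring
  have h4 : |Real.log l * l ^ (α / 2)| * l ^ (α / 2 - 1) ≤ 1 / (α / 2) * l ^ (α / 2 - 1) :=
    mul_le_mul_of_nonneg_right h2 (Real.rpow_nonneg hl0.le _)
  have h5 : 1 / (α / 2) = 2 / α := by field_simp
  rw [h5] at h4
  rw [mul_add, mul_one, h3, add_mul, one_mul]
  linarith

theorem rpow_large (α l : ℝ) (hl : l ∈ Ici (1:ℝ)) : l ^ (α - 1) * (1 / l) = l ^ (α - 2) := by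
  have hl0 : 0 < l := lt_of_lt_of_le one_pos hl
  rw [one_div, ← Real.rpow_neg_one l, ← Real.rpow_add hl0]
  congr 1
  ring

theorem int_small (α : ℝ) (h0 : 0 < α) : IntegrableOn (fun l : ℝ => l ^ (α / 2 - 1)) (Ioc 0 1) := by
  have := intervalIntegral.intervalIntegrable_rpow' (a := 0) (b := 1) (r := α / 2 - 1)
    (by linarith)
  exact (intervalIntegrable_iff_integrableOn_Ioc_of_le zero_le_one).1 this

theorem int_large (α : ℝ) (h1 : α < 1) : IntegrableOn (fun l : ℝ => l ^ (α - 2)) (Ioi 1) :=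
  integrableOn_Ioi_rpow_of_lt (by linarith) one_pos

/-- Uniform bounds for `D_l` (row A). -/
structure UnifBd (K : Mat N) : Prop where
  small : ∃ C : ℝ, ∀ M, Between K M → ∀ l ∈ Ioc (0:ℝ) 1, ∀ i j,
    ‖Dl K M l i j‖ ≤ C * (1 + |Real.log l|)
  large : ∃ C : ℝ, ∀ M, Between K M → ∀ l ∈ Ici (1:ℝ), ∀ i j, ‖Dl K M l i j‖ ≤ C / l

theorem bound_small {K : Mat N} (hU : UnifBd K) (α : ℝ) (h0 : 0 < α) (b : ℝ) (hb0 : 0 ≤ b) :
    ∃ C : ℝ, ∀ M W : Mat N, Between K M → (∀ i j, ‖W i j‖ ≤ b) → ∀ l ∈ Ioc (0:ℝ) 1,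
      |l ^ (α - 1) * tp (Dl K M l) W| ≤ C * l ^ (α / 2 - 1) := by
  obtain ⟨C, hC⟩ := hU.small
  refine ⟨(N : ℝ) * (N : ℝ) * (|C| * b) * (1 + 2 / α), fun M W hM hW l hl => ?_⟩
  have hl0 : 0 < l := hl.1
  have h1 : ∀ i j, ‖Dl K M l i j‖ ≤ |C| * (1 + |Real.log l|) := fun i j =>
    (hC M hM l hl i j).trans (mul_le_mul_of_nonneg_right (le_abs_self C) (by positivity))
  have h2 := abs_tp_le (Dl K M l) W _ b h1 hW (by positivity)
  rw [abs_mul, abs_of_nonneg (Real.rpow_nonneg hl0.le _)]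
  have h3 := rpow_log_bound α h0 l hl
  calc l ^ (α - 1) * |tp (Dl K M l) W|
      ≤ l ^ (α - 1) * ((N : ℝ) * (N : ℝ) * (|C| * (1 + |Real.log l|) * b)) :=
        mul_le_mul_of_nonneg_left h2 (Real.rpow_nonneg hl0.le _)
    _ = (N : ℝ) * (N : ℝ) * (|C| * b) * (l ^ (α - 1) * (1 + |Real.log l|)) := by ring
    _ ≤ (N : ℝ) * (N : ℝ) * (|C| * b) * ((1 + 2 / α) * l ^ (α / 2 - 1)) :=
        mul_le_mul_of_nonneg_left h3 (by positivity)
    _ = _ := by ring

theorem bound_large {K : Mat N} (hU : UnifBd K) (α : ℝ) (b : ℝ) (hb0 : 0 ≤ b) :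
    ∃ C : ℝ, ∀ M W : Mat N, Between K M → (∀ i j, ‖W i j‖ ≤ b) → ∀ l ∈ Ici (1:ℝ),
      |l ^ (α - 1) * tp (Dl K M l) W| ≤ C * l ^ (α - 2) := by
  obtain ⟨C, hC⟩ := hU.large
  refine ⟨(N : ℝ) * (N : ℝ) * (|C| * b), fun M W hM hW l hl => ?_⟩
  have hl0 : 0 < l := lt_of_lt_of_le one_pos hl
  have h1 : ∀ i j, ‖Dl K M l i j‖ ≤ |C| * (1 / l) := fun i j =>
    (hC M hM l hl i j).trans (by
      rw [div_eq_mul_one_div]
      exact mul_le_mul_of_nonneg_right (le_abs_self C) (by positivity))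
  have h2 := abs_tp_le (Dl K M l) W _ b h1 hW (by positivity)
  rw [abs_mul, abs_of_nonneg (Real.rpow_nonneg hl0.le _)]
  calc l ^ (α - 1) * |tp (Dl K M l) W|
      ≤ l ^ (α - 1) * ((N : ℝ) * (N : ℝ) * (|C| * (1 / l) * b)) :=
        mul_le_mul_of_nonneg_left h2 (Real.rpow_nonneg hl0.le _)
    _ = (N : ℝ) * (N : ℝ) * (|C| * b) * (l ^ (α - 1) * (1 / l)) := by ring
    _ = _ := by rw [rpow_large α l hl]

theorem exists_entry_bound {L : ℝ} (W : ℝ → Mat N)
    (hW : ∀ i j, ContinuousOn (fun x => W x i j) (Icc (-L) L)) :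
    ∃ b : ℝ, 0 ≤ b ∧ ∀ x ∈ Icc (-L) L, ∀ i j, ‖W x i j‖ ≤ b := by
  have h : ∀ i j, ∃ b : ℝ, 0 ≤ b ∧ ∀ x ∈ Icc (-L) L, ‖W x i j‖ ≤ b := by
    intro i j
    obtain ⟨b, hb⟩ := isCompact_Icc.exists_bound_of_continuousOn (hW i j)
    exact ⟨|b|, abs_nonneg _, fun x hx => (hb x hx).trans (le_abs_self b)⟩
  choose f hf0 hf using h
  refine ⟨∑ i, ∑ j, f i j, Finset.sum_nonneg fun i _ => Finset.sum_nonneg fun j _ => hf0 i j,
    fun x hx i j => (hf i j x hx).trans ?_⟩
  refine (Finset.single_le_sum (f := fun j => f i j) (fun j _ => hf0 i j)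
    (Finset.mem_univ j)).trans ?_
  exact Finset.single_le_sum (f := fun i => ∑ j, f i j)
    (fun i _ => Finset.sum_nonneg fun j _ => hf0 i j) (Finset.mem_univ i)

theorem contOn_rpow_mul {S : Set ℝ} {K : Mat N} {M W : ℝ → Mat N} (α : ℝ) (hK : K.PosDef)
    (hMc : ∀ i j, ContinuousOn (fun x => M x i j) S)
    (hb : ∀ x ∈ S, Between K (M x))
    (hW : ∀ i j, ContinuousOn (fun x => W x i j) S) :
    ContinuousOn (fun p : ℝ × ℝ => p.2 ^ (α - 1) * tp (Dl K (M p.1) p.2) (W p.1))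
      (S ×ˢ (Ioi (0:ℝ))) := by
  refine ContinuousOn.mul ?_ (contOn_tp_Dl hK hMc hb W hW)
  intro p hp
  refine ContinuousAt.continuousWithinAt ?_
  have h0 : (0:ℝ) < p.2 := hp.2
  exact continuousAt_snd.rpow_const (Or.inl h0.ne')

theorem integrable_prod_tp {K : Mat N} {M W : ℝ → Mat N} (hU : UnifBd K) (α : ℝ) (h0 : 0 < α)
    (h1 : α < 1) (L : ℝ) (hK : K.PosDef)
    (hMc : ∀ i j, ContinuousOn (fun x => M x i j) (Icc (-L) L))
    (hb : ∀ x ∈ Icc (-L) L, Between K (M x))
    (hW : ∀ i j, ContinuousOn (fun x => W x i j) (Icc (-L) L)) :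
    Integrable (Function.uncurry fun x l : ℝ => l ^ (α - 1) * tp (Dl K (M x) l) (W x))
      ((volume.restrict (Ioc (-L) L)).prod (volume.restrict (Ioi (0:ℝ)))) := by
  obtain ⟨b, hb0, hbW⟩ := exists_entry_bound W hW
  obtain ⟨C1, hC1⟩ := bound_small hU α h0 b hb0
  obtain ⟨C2, hC2⟩ := bound_large hU α b hb0
  rw [Measure.prod_restrict]
  have hcont := contOn_rpow_mul α hK hMc hb hW
  have hsub : Ioc (-L) L ×ˢ Ioi (0:ℝ) ⊆ Icc (-L) L ×ˢ Ioi (0:ℝ) :=
    prod_mono Ioc_subset_Icc_self le_rfl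
  have hcont' := hcont.mono hsub
  have hun : Ioc (-L) L ×ˢ Ioi (0:ℝ) = (Ioc (-L) L ×ˢ Ioc (0:ℝ) 1) ∪ (Ioc (-L) L ×ˢ Ioi (1:ℝ)) := by
    rw [← prod_union, Ioc_union_Ioi_eq_Ioi zero_le_one]
  change IntegrableOn _ (Ioc (-L) L ×ˢ Ioi (0:ℝ)) (volume.prod volume)
  rw [hun]
  refine IntegrableOn.union ?_ ?_
  · have hdom : IntegrableOn (fun p : ℝ × ℝ => (1:ℝ) * (C1 * p.2 ^ (α / 2 - 1)))
        (Ioc (-L) L ×ˢ Ioc (0:ℝ) 1) (volume.prod volume) := by
      unfold IntegrableOn
      rw [← Measure.prod_restrict]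
      exact Integrable.mul_prod (f := fun _ : ℝ => (1:ℝ)) (g := fun l : ℝ => C1 * l ^ (α / 2 - 1))
        (integrable_const 1) ((int_small α h0).const_mul C1)
    refine Integrable.mono' hdom ?_ ?_
    · refine ContinuousOn.aestronglyMeasurable ?_ (measurableSet_Ioc.prod measurableSet_Ioc)
      exact hcont'.mono (prod_mono le_rfl (fun l hl => hl.1))
    · rw [ae_restrict_iff' (measurableSet_Ioc.prod measurableSet_Ioc)]
      refine ae_of_all _ fun p hp => ?_
      rw [Real.norm_eq_abs, one_mul]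
      have hx : p.1 ∈ Icc (-L) L := Ioc_subset_Icc_self hp.1
      exact hC1 (M p.1) (W p.1) (hb _ hx) (hbW _ hx) p.2 hp.2
  · have hdom : IntegrableOn (fun p : ℝ × ℝ => (1:ℝ) * (C2 * p.2 ^ (α - 2)))
        (Ioc (-L) L ×ˢ Ioi (1:ℝ)) (volume.prod volume) := by
      unfold IntegrableOn
      rw [← Measure.prod_restrict]
      exact Integrable.mul_prod (f := fun _ : ℝ => (1:ℝ)) (g := fun l : ℝ => C2 * l ^ (α - 2))
        (integrable_const 1) ((int_large α h1).const_mul C2)
    refine Integrable.mono' hdom ?_ ?_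
    · refine ContinuousOn.aestronglyMeasurable ?_ (measurableSet_Ioc.prod measurableSet_Ioi)
      exact hcont'.mono (prod_mono le_rfl (fun l (hl : 1 < l) => lt_trans one_pos hl))
    · rw [ae_restrict_iff' (measurableSet_Ioc.prod measurableSet_Ioi)]
      refine ae_of_all _ fun p hp => ?_
      rw [Real.norm_eq_abs, one_mul]
      have hx : p.1 ∈ Icc (-L) L := Ioc_subset_Icc_self hp.1
      exact hC2 (M p.1) (W p.1) (hb _ hx) (hbW _ hx) p.2 (Ioi_subset_Ici_self hp.2)

/-- integrability in `l` for fixed `M`. -/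
theorem integrableOn_tp_Dl {K M : Mat N} (hU : UnifBd K) (α : ℝ) (h0 : 0 < α)
    (h1 : α < 1) (hK : K.PosDef) (hb : Between K M) (W : Mat N) :
    IntegrableOn (fun l : ℝ => l ^ (α - 1) * tp (Dl K M l) W) (Ioi 0) := by
  obtain ⟨b, hb0, hbW⟩ := exists_entry_bound (L := 0) (fun _ : ℝ => W)
    (fun i j => continuousOn_const)
  have hbW' : ∀ i j, ‖W i j‖ ≤ b := hbW 0 (by simp)
  obtain ⟨C1, hC1⟩ := bound_small hU α h0 b hb0
  obtain ⟨C2, hC2⟩ := bound_large hU α b hb0
  have hcont : ContinuousOn (fun l : ℝ => l ^ (α - 1) * tp (Dl K M l) W) (Ioi 0) :=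
    (contOn_rpow_mul (S := univ) (M := fun _ => M) (W := fun _ => W) α hK
      (fun i j => continuousOn_const) (fun _ _ => hb) (fun i j => continuousOn_const)).comp
      (f := fun l : ℝ => ((0:ℝ), l)) (continuous_const.prodMk continuous_id).continuousOn
      (fun l hl => ⟨mem_univ _, hl⟩)
  rw [← Ioc_union_Ioi_eq_Ioi (zero_le_one (α := ℝ))]
  refine IntegrableOn.union ?_ ?_
  · refine Integrable.mono' ((int_small α h0).const_mul C1) ?_ ?_
    · exact (hcont.mono (fun l (hl : l ∈ Ioc (0:ℝ) 1) => hl.1)).aestronglyMeasurable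
        measurableSet_Ioc
    · rw [ae_restrict_iff' measurableSet_Ioc]
      exact ae_of_all _ fun l hl => hC1 M W hb hbW' l hl
  · refine Integrable.mono' ((int_large α h1).const_mul C2) ?_ ?_
    · exact (hcont.mono (fun l (hl : 1 < l) => lt_trans one_pos hl)).aestronglyMeasurable
        measurableSet_Ioi
    · rw [ae_restrict_iff' measurableSet_Ioi]
      exact ae_of_all _ fun l hl => hC2 M W hb hbW' l (Ioi_subset_Ici_self hl)

theorem tp_eq_entries (A B : Mat N) : tp A B = ((A * B).trace).re := rfl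

theorem entries_E {K : Mat N} {M : ℝ → Mat N} {S : Set ℝ}
    (hMc : ∀ i j, ContinuousOn (fun x => M x i j) S) (i j : Fin N) :
    ContinuousOn (fun x => (K * K - M x * M x) i j) S := by
  have h1 : ∀ x, (K * K - M x * M x) i j = (K * K) i j - ∑ k, M x i k * M x k j := by
    intro x; rw [Matrix.sub_apply, mul_apply (M := M x)]
  simp only [h1]
  refine continuousOn_const.sub (continuousOn_finsetSum _ fun k _ => ?_)
  exact (hMc i k).mul (hMc k j)

theorem main (α : ℝ) (h0 : 0 < α) (h1 : α < 1) (L : ℝ) (hL : 0 < L) (K : Mat N)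
    (Z M : ℝ → Mat N) (hZ : ∀ x, (Z x).PosSemidef) (hZc : ∀ i j, Continuous (fun x => Z x i j))
    (hM : RicPath L K (fun x => ((1 + 1 / α : ℝ) : ℂ) • Z x) M)
    (hU : UnifBd K)
    (hstat : ∀ (M Z : Mat N), Between K M → Z.PosSemidef →
      (1 + α) * Pint α K M Z - α * Pint α K M (K * K - M * M) ≤ Jc α * trPow (1 + α) Z) :
    bet α * trPow (2 * α + 1) K ≤ 1 / α * ∫ x in (-L)..L, trPow (1 + α) (Z x) := by
  have hK := hM.posDef
  have hle : -L ≤ L := by linarith
  have hZ' : ∀ i j, ContinuousOn (fun x => Z x i j) (Icc (-L) L) :=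
    fun i j => (hZc i j).continuousOn
  have hE' : ∀ i j, ContinuousOn (fun x => (K * K - M x * M x) i j) (Icc (-L) L) :=
    fun i j => entries_E hM.cont i j
  have hIZ := integrable_prod_tp (W := Z) hU α h0 h1 L hK hM.cont hM.between hZ'
  have hIE := integrable_prod_tp (W := fun x => K * K - M x * M x) hU α h0 h1 L hK hM.cont
    hM.between hE'
  have hGeq : ∀ x l, GG α K Z M x l = (1 + 1 / α) * (l ^ (α - 1) * tp (Dl K (M x) l) (Z x))
      - l ^ (α - 1) * tp (Dl K (M x) l) (K * K - M x * M x) := by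
    intro x l; unfold GG; ring
  have hIG : Integrable (Function.uncurry fun x l : ℝ => GG α K Z M x l)
      ((volume.restrict (Ioc (-L) L)).prod (volume.restrict (Ioi (0:ℝ)))) := by
    have := (hIZ.const_mul (1 + 1 / α)).sub hIE
    refine this.congr (ae_of_all _ fun p => ?_)
    simp only [Function.uncurry, Pi.sub_apply, hGeq]
  have hswap : ∫ x in Ioc (-L) L, ∫ l in Ioi (0:ℝ), GG α K Z M x l
      = ∫ l in Ioi (0:ℝ), ∫ x in Ioc (-L) L, GG α K Z M x l :=
    integral_integral_swap hIG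
  -- the `l` integral of the boundary terms
  have hright : ∫ l in Ioi (0:ℝ), ∫ x in Ioc (-L) L, GG α K Z M x l
      = Jc α * (bet α * trPow (2 * α + 1) K) := by
    have e1 : ∫ l in Ioi (0:ℝ), ∫ x in Ioc (-L) L, GG α K Z M x l
        = ∫ l in Ioi (0:ℝ), ∑ i, l ^ (α - 1) *
          ∫ t in (-(hM.posDef.isHermitian.eigenvalues i))..(hM.posDef.isHermitian.eigenvalues i),
          Real.log (1 + ((hM.posDef.isHermitian.eigenvalues i) ^ 2 - t ^ 2) / l) :=
      setIntegral_congr_fun measurableSet_Ioi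
        (fun l hl => integral_GG_x α L hL K Z M hZc hM l hl)
    rw [e1, integral_finset_sum _ (fun i _ =>
      (integral_boundary α h0 h1 _ (hM.posDef.eigenvalues_pos i)).1)]
    rw [trPow_eq_sum _ K hM.posDef.isHermitian, Finset.mul_sum, Finset.mul_sum]
    refine Finset.sum_congr rfl fun i _ => ?_
    rw [(integral_boundary α h0 h1 _ (hM.posDef.eigenvalues_pos i)).2]
    ring
  -- the `x` integral
  have hleft : ∀ x ∈ Icc (-L) L, ∫ l in Ioi (0:ℝ), GG α K Z M x l
      ≤ 1 / α * (Jc α * trPow (1 + α) (Z x)) := by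
    intro x hx
    have hb := hM.between x hx
    have e1 : ∫ l in Ioi (0:ℝ), GG α K Z M x l
        = (1 + 1 / α) * Pint α K (M x) (Z x) - Pint α K (M x) (K * K - M x * M x) := by
      unfold Pint
      rw [← integral_const_mul, ← integral_sub
        ((integrableOn_tp_Dl hU α h0 h1 hK hb (Z x)).const_mul _)
        (integrableOn_tp_Dl hU α h0 h1 hK hb _)]
      exact integral_congr_ae (ae_of_all _ fun l => hGeq x l)
    have h2 := hstat (M x) (Z x) hb (hZ x)
    rw [e1]
    have h3 := mul_le_mul_of_nonneg_left h2 (show 0 ≤ 1 / α by positivity)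
    have h4 : 1 / α * ((1 + α) * Pint α K (M x) (Z x) - α * Pint α K (M x) (K * K - M x * M x))
        = (1 + 1 / α) * Pint α K (M x) (Z x) - Pint α K (M x) (K * K - M x * M x) := by
      field_simp
      ring
    linarith
  have htr : Continuous (fun x => trPow (1 + α) (Z x)) := by
    have e : (fun x => trPow (1 + α) (Z x))
        = fun x => ((cfc (fun t : ℝ => t ^ (1 + α)) (Z x)).trace).re := by
      funext x; exact trPow_eq_cfc _ _ (hZ x).isHermitian
    rw [e]
    have hc := continuousOn_cfc_psd (N := N) (fun t : ℝ => t ^ (1 + α))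
      (fun t _ => (Real.continuousAt_rpow_const t (1 + α) (Or.inr (by linarith))).continuousWithinAt)
    have hZcont : Continuous Z := continuous_pi fun i => continuous_pi fun j => hZc i j
    have h3 : Continuous (fun x => cfc (fun t : ℝ => t ^ (1 + α)) (Z x)) := by
      rw [← continuousOn_univ]
      exact hc.comp hZcont.continuousOn (fun x _ => hZ x)
    exact Complex.continuous_re.comp h3.matrix_trace
  have hfin : Jc α * (bet α * trPow (2 * α + 1) K)
      ≤ ∫ x in Ioc (-L) L, 1 / α * (Jc α * trPow (1 + α) (Z x)) := by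
    rw [← hright, ← hswap]
    refine setIntegral_mono_on hIG.integral_prod_left ?_ measurableSet_Ioc
      (fun x hx => hleft x (Ioc_subset_Icc_self hx))
    exact ((continuous_const.mul (continuous_const.mul htr)).continuousOn (s := Icc (-L) L)
      |>.integrableOn_Icc).mono_set Ioc_subset_Icc_self
  have hJ := Jc_pos α h0 h1
  have e5 : ∫ x in Ioc (-L) L, 1 / α * (Jc α * trPow (1 + α) (Z x))
      = Jc α * (1 / α * ∫ x in (-L)..L, trPow (1 + α) (Z x)) := by
    rw [intervalIntegral.integral_of_le hle, integral_const_mul, integral_const_mul]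
    ring
  rw [e5] at hfin
  exact le_of_mul_le_mul_left hfin hJ

end RRow

end Vale.LT2
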