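import Vale.Agent.H19.LT2.Unif
import Vale.Agent.H26.LT2S

/-!
P371, row R: final form.
-/

open MeasureTheory Matrix Set
open scoped ENNReal ComplexOrder

namespace Vale.LT2

open Vale.LT (trPow)

variable {N : ℕ}

theorem riccati_ineq (α : ℝ) (h0 : 0 < α) (h1 : α < 1) (L : ℝ) (hL : 0 < L) (K : Mat N)
    (Z M : ℝ → Mat N) (hZ : ∀ x, (Z x).PosSemidef) (hZc : ∀ i j, Continuous (fun x => Z x i j))
    (hM : RicPath L K (fun x => ((1 + 1 / α : ℝ) : ℂ) • Z x) M) :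
    bet α * trPow (2 * α + 1) K ≤ 1 / α * ∫ x in (-L)..L, trPow (1 + α) (Z x) :=
  RRow.main α h0 h1 L hL K Z M hZ hZc hM (RRow.unifBd K hM.posDef)
    (fun M' Z' hM' hZ' => static_ineq α h0 h1 K M' Z' hM.posDef hM' hZ')

end Vale.LT2
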