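import Vale.Agent.H19.LT2.R

open MeasureTheory Matrix Set Topology Filter
open scoped ENNReal ComplexOrder

namespace Vale.LT2
namespace RRow
open Vale.H22.GT
variable {N : ℕ}

theorem row_norm {A : Mat N} (hA : A.IsHermitian) (i : Fin N) :
    ∑ k, ‖(hA.eigenvectorUnitary : Mat N) i k‖ ^ 2 = 1 := by
  have h := congrFun (congrFun (U_mul_star hA) i) i
  rw [Matrix.mul_apply, Matrix.one_apply_eq] at h
  have h2 : ∀ k, (hA.eigenvectorUnitary : Mat N) i k * (hA.eigenvectorUnitary : Mat N)ᴴ k i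
      = ((‖(hA.eigenvectorUnitary : Mat N) i k‖ ^ 2 : ℝ) : ℂ) := by
    intro k
    rw [conjTranspose_apply, mul_star_self_eq]
  simp only [h2] at h
  exact_mod_cast h

theorem norm_fn_le {A : Mat N} (hA : A.IsHermitian) (d : Fin N → ℂ) (c : ℝ)
    (hd : ∀ i, ‖d i‖ ≤ c) (i j : Fin N) : ‖fn hA d i j‖ ≤ c := by
  have hc : 0 ≤ c := (norm_nonneg _).trans (hd i)
  have h1 : fn hA d i j = ∑ k, (hA.eigenvectorUnitary : Mat N) i k * d k *
      star ((hA.eigenvectorUnitary : Mat N) j k) := by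
    unfold fn
    rw [Matrix.mul_apply]
    refine Finset.sum_congr rfl fun k _ => ?_
    rw [Matrix.mul_diagonal, conjTranspose_apply]
  rw [h1]
  refine (norm_sum_le _ _).trans ?_
  have h2 : ∀ k, ‖(hA.eigenvectorUnitary : Mat N) i k * d k *
      star ((hA.eigenvectorUnitary : Mat N) j k)‖ ≤
      c * ((‖(hA.eigenvectorUnitary : Mat N) i k‖ ^ 2 +
        ‖(hA.eigenvectorUnitary : Mat N) j k‖ ^ 2) / 2) := by
    intro k
    rw [norm_mul, norm_mul, norm_star]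
    have h3 : ‖(hA.eigenvectorUnitary : Mat N) i k‖ * ‖(hA.eigenvectorUnitary : Mat N) j k‖ ≤
        (‖(hA.eigenvectorUnitary : Mat N) i k‖ ^ 2 +
        ‖(hA.eigenvectorUnitary : Mat N) j k‖ ^ 2) / 2 := by
      nlinarith [sq_nonneg (‖(hA.eigenvectorUnitary : Mat N) i k‖ -
        ‖(hA.eigenvectorUnitary : Mat N) j k‖)]
    calc ‖(hA.eigenvectorUnitary : Mat N) i k‖ * ‖d k‖ * ‖(hA.eigenvectorUnitary : Mat N) j k‖
        = ‖d k‖ * (‖(hA.eigenvectorUnitary : Mat N) i k‖ *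
          ‖(hA.eigenvectorUnitary : Mat N) j k‖) := by ring
      _ ≤ c * _ := mul_le_mul (hd k) h3 (by positivity) hc
  refine (Finset.sum_le_sum fun k _ => h2 k).trans (le_of_eq ?_)
  rw [← Finset.mul_sum, ← Finset.sum_div, Finset.sum_add_distrib, row_norm, row_norm]
  norm_num

theorem eig_sub {A : Mat N} (hA : A.IsHermitian) (c : ℝ) (i : Fin N) :
    (star ((hA.eigenvectorBasis i : EuclideanSpace ℂ (Fin N)).ofLp) ⬝ᵥ
      (A - (c:ℂ) • (1 : Mat N)) *ᵥ ((hA.eigenvectorBasis i : EuclideanSpace ℂ (Fin N)).ofLp))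
      = ((hA.eigenvalues i - c : ℝ) : ℂ) := by
  have h1 : star ((hA.eigenvectorBasis i : EuclideanSpace ℂ (Fin N)).ofLp) ⬝ᵥ
      ((hA.eigenvectorBasis i : EuclideanSpace ℂ (Fin N)).ofLp) = 1 := by
    have h := hA.eigenvectorBasis.orthonormal.1 i
    have h2 : inner ℂ (hA.eigenvectorBasis i) (hA.eigenvectorBasis i) = (1:ℂ) := by
      rw [inner_self_eq_norm_sq_to_K, h]; simp
    rw [EuclideanSpace.inner_eq_star_dotProduct] at h2
    rw [dotProduct_comm]
    exact h2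
  rw [sub_mulVec, smul_mulVec, one_mulVec, dotProduct_sub, dotProduct_smul, h1,
    hA.mulVec_eigenvectorBasis, dotProduct_smul, h1]
  push_cast
  simp

theorem le_eig {A : Mat N} (hA : A.IsHermitian) (c : ℝ)
    (h : (A - (c:ℂ) • (1 : Mat N)).PosSemidef) (i : Fin N) : c ≤ hA.eigenvalues i := by
  have h1 := h.dotProduct_mulVec_nonneg (hA.eigenvectorBasis i : EuclideanSpace ℂ (Fin N)).ofLp
  rw [eig_sub hA c i] at h1
  have h2 : (0:ℝ) ≤ hA.eigenvalues i - c := by exact_mod_cast h1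
  linarith

theorem eig_le {A : Mat N} (hA : A.IsHermitian) (c : ℝ)
    (h : ((c:ℂ) • (1 : Mat N) - A).PosSemidef) (i : Fin N) : hA.eigenvalues i ≤ c := by
  have h1 := h.dotProduct_mulVec_nonneg (hA.eigenvectorBasis i : EuclideanSpace ℂ (Fin N)).ofLp
  have h3 : (c:ℂ) • (1 : Mat N) - A = -(A - (c:ℂ) • (1 : Mat N)) := by abel
  rw [h3, neg_mulVec, dotProduct_neg, eig_sub hA c i] at h1
  have h2 : (0:ℝ) ≤ -(hA.eigenvalues i - c) := by exact_mod_cast h1
  linarith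

theorem Kl_sub_lower (K : Mat N) (hK : K.PosDef) (κ : ℝ)
    (hκ : ∀ i, hK.isHermitian.eigenvalues i ≤ κ) (l : ℝ) (hl : 0 < l) :
    (Kl K l - K - ((√(κ ^ 2 + l) - κ : ℝ) : ℂ) • (1 : Mat N)).PosSemidef := by
  have h : Kl K l - K - ((√(κ ^ 2 + l) - κ : ℝ) : ℂ) • (1 : Mat N) = fn hK.isHermitian
      (fun i => ((√((hK.isHermitian.eigenvalues i) ^ 2 + l) - hK.isHermitian.eigenvalues i
        - (√(κ ^ 2 + l) - κ) : ℝ) : ℂ)) := by
    have e : (fun i => ((√((hK.isHermitian.eigenvalues i) ^ 2 + l) -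
        hK.isHermitian.eigenvalues i - (√(κ ^ 2 + l) - κ) : ℝ) : ℂ)) = fun i =>
        (((√((hK.isHermitian.eigenvalues i) ^ 2 + l) : ℝ) : ℂ) -
          (hK.isHermitian.eigenvalues i : ℂ)) - ((√(κ ^ 2 + l) - κ : ℝ) : ℂ) := by
      funext i
      push_cast
      rfl
    rw [e, fn_sub, fn_sub, fn_eig, Kl_eq_fn K hK.isHermitian, fn_const]
  rw [h]
  refine fn_posSemidef _ _ fun i => ?_
  have h0 := hK.eigenvalues_pos i
  set k := hK.isHermitian.eigenvalues i with hk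
  have h1 := hκ i
  have hκ0 : 0 < κ := lt_of_lt_of_le h0 h1
  have e1 : √(k ^ 2 + l) - k = l / (√(k ^ 2 + l) + k) := by
    rw [eq_div_iff (by positivity)]
    have := Real.mul_self_sqrt (show 0 ≤ k ^ 2 + l by positivity)
    nlinarith
  have e2 : √(κ ^ 2 + l) - κ = l / (√(κ ^ 2 + l) + κ) := by
    rw [eq_div_iff (by positivity)]
    have := Real.mul_self_sqrt (show 0 ≤ κ ^ 2 + l by positivity)
    nlinarith
  rw [e1, e2, sub_nonneg]
  refine div_le_div_of_nonneg_left hl.le (by positivity) ?_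
  have h3 : √(k ^ 2 + l) ≤ √(κ ^ 2 + l) := Real.sqrt_le_sqrt (by nlinarith)
  linarith

theorem Kl_add_upper (K : Mat N) (hK : K.PosDef) (κ : ℝ)
    (hκ : ∀ i, hK.isHermitian.eigenvalues i ≤ κ) (l : ℝ) (hl : 0 < l) :
    (((√(κ ^ 2 + l) + κ : ℝ) : ℂ) • (1 : Mat N) - (Kl K l + K)).PosSemidef := by
  have h : ((√(κ ^ 2 + l) + κ : ℝ) : ℂ) • (1 : Mat N) - (Kl K l + K) = fn hK.isHermitian
      (fun i => (((√(κ ^ 2 + l) + κ) - (√((hK.isHermitian.eigenvalues i) ^ 2 + l) +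
        hK.isHermitian.eigenvalues i) : ℝ) : ℂ)) := by
    have e : (fun i => (((√(κ ^ 2 + l) + κ) - (√((hK.isHermitian.eigenvalues i) ^ 2 + l) +
        hK.isHermitian.eigenvalues i) : ℝ) : ℂ)) = fun i =>
        ((√(κ ^ 2 + l) + κ : ℝ) : ℂ) - (((√((hK.isHermitian.eigenvalues i) ^ 2 + l) : ℝ) : ℂ) +
          (hK.isHermitian.eigenvalues i : ℂ)) := by
      funext i
      push_cast
      rfl
    rw [e, fn_sub, fn_add, fn_eig, Kl_eq_fn K hK.isHermitian, fn_const]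
  rw [h]
  refine fn_posSemidef _ _ fun i => ?_
  have h0 := hK.eigenvalues_pos i
  set k := hK.isHermitian.eigenvalues i with hk
  have h1 := hκ i
  have h3 : √(k ^ 2 + l) ≤ √(κ ^ 2 + l) := Real.sqrt_le_sqrt (by nlinarith)
  linarith

/-- eigenvalue bounds of `K_l ± M` -/
theorem eig_bounds (K A : Mat N) (hK : K.PosDef) (κ : ℝ)
    (hκ : ∀ i, hK.isHermitian.eigenvalues i ≤ κ) (l : ℝ) (hl : 0 < l)
    (hA : A.IsHermitian) (h1 : (A - (Kl K l - K)).PosSemidef)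
    (h2 : ((Kl K l + K) - A).PosSemidef) (i : Fin N) :
    √(κ ^ 2 + l) - κ ≤ hA.eigenvalues i ∧ hA.eigenvalues i ≤ √(κ ^ 2 + l) + κ := by
  constructor
  · refine le_eig hA _ ?_ i
    have e : A - ((√(κ ^ 2 + l) - κ : ℝ) : ℂ) • (1 : Mat N) = (A - (Kl K l - K)) +
      (Kl K l - K - ((√(κ ^ 2 + l) - κ : ℝ) : ℂ) • (1 : Mat N)) := by abel
    rw [e]
    exact h1.add (Kl_sub_lower K hK κ hκ l hl)
  · refine eig_le hA _ ?_ i
    have e : ((√(κ ^ 2 + l) + κ : ℝ) : ℂ) • (1 : Mat N) - A = ((Kl K l + K) - A) +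
      (((√(κ ^ 2 + l) + κ : ℝ) : ℂ) • (1 : Mat N) - (Kl K l + K)) := by abel
    rw [e]
    exact h2.add (Kl_add_upper K hK κ hκ l hl)

theorem add_bounds {K M : Mat N} (hK : K.PosDef) (hM : Between K M) (κ : ℝ)
    (hκ : ∀ i, hK.isHermitian.eigenvalues i ≤ κ) (l : ℝ) (hl : 0 < l) (i : Fin N) :
    √(κ ^ 2 + l) - κ ≤ (Kl_posDef K M hK hM l hl).1.isHermitian.eigenvalues i ∧
      (Kl_posDef K M hK hM l hl).1.isHermitian.eigenvalues i ≤ √(κ ^ 2 + l) + κ := by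
  refine eig_bounds K _ hK κ hκ l hl _ ?_ ?_ i
  · have : Kl K l + M - (Kl K l - K) = K + M := by abel
    rw [this]; exact hM.lower
  · have : Kl K l + K - (Kl K l + M) = K - M := by abel
    rw [this]; exact hM.upper

theorem sub_bounds {K M : Mat N} (hK : K.PosDef) (hM : Between K M) (κ : ℝ)
    (hκ : ∀ i, hK.isHermitian.eigenvalues i ≤ κ) (l : ℝ) (hl : 0 < l) (i : Fin N) :
    √(κ ^ 2 + l) - κ ≤ (Kl_posDef K M hK hM l hl).2.isHermitian.eigenvalues i ∧
      (Kl_posDef K M hK hM l hl).2.isHermitian.eigenvalues i ≤ √(κ ^ 2 + l) + κ := by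
  refine eig_bounds K _ hK κ hκ l hl _ ?_ ?_ i
  · have : Kl K l - M - (Kl K l - K) = K - M := by abel
    rw [this]; exact hM.upper
  · have : Kl K l + K - (Kl K l - M) = K + M := by abel
    rw [this]; exact hM.lower

/-- scalar bound, small `l` -/
theorem log_small (κ l a : ℝ) (hκ : 0 ≤ κ) (hl : l ∈ Ioc (0:ℝ) 1)
    (h1 : √(κ ^ 2 + l) - κ ≤ a) (h2 : a ≤ √(κ ^ 2 + l) + κ) :
    |Real.log a| ≤ |Real.log l| + Real.log (√(κ ^ 2 + 1) + κ) := by
  have hl0 : 0 < l := hl.1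
  have hs : √(κ ^ 2 + l) ≤ √(κ ^ 2 + 1) := Real.sqrt_le_sqrt (by linarith [hl.2])
  have hs1 : 1 ≤ √(κ ^ 2 + 1) := by
    rw [Real.one_le_sqrt]; nlinarith
  set u := √(κ ^ 2 + 1) + κ with hu
  have hu1 : 1 ≤ u := by linarith
  have hκl : κ < √(κ ^ 2 + l) := Real.lt_sqrt_of_sq_lt (by linarith)
  have e2 : √(κ ^ 2 + l) - κ = l / (√(κ ^ 2 + l) + κ) := by
    rw [eq_div_iff (by linarith)]
    have := Real.mul_self_sqrt (show 0 ≤ κ ^ 2 + l by positivity)
    nlinarith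
  have h3 : l / u ≤ a := by
    refine le_trans ?_ h1
    rw [e2]
    exact div_le_div_of_nonneg_left hl0.le (by linarith) (by linarith)
  have h4 : a ≤ u := by linarith
  have hlu : 0 < l / u := by positivity
  have ha : 0 < a := lt_of_lt_of_le hlu h3
  have h5 : Real.log (l / u) ≤ Real.log a := Real.log_le_log hlu h3
  have h6 : Real.log a ≤ Real.log u := Real.log_le_log ha h4
  rw [Real.log_div hl0.ne' (by linarith)] at h5
  have h7 : 0 ≤ Real.log u := Real.log_nonneg hu1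
  rw [abs_le]
  constructor
  · have := neg_abs_le (Real.log l)
    linarith
  · have := abs_nonneg (Real.log l)
    linarith

/-- scalar bound, large `l` -/
theorem log_large (κ l a : ℝ) (hκ : 0 ≤ κ) (hl : 1 ≤ l)
    (h1 : √(κ ^ 2 + l) - κ ≤ a) (h2 : a ≤ √(κ ^ 2 + l) + κ) :
    |Real.log a - Real.log (√l) - (a / √l - 1)| ≤ 4 * κ ^ 2 * (√(κ ^ 2 + 1) + κ) / l := by
  have hl0 : 0 < l := lt_of_lt_of_le one_pos hl
  set s := √l with hs
  have hs1 : 1 ≤ s := by rw [hs, Real.one_le_sqrt]; exact hl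
  have hs0 : 0 < s := lt_of_lt_of_le one_pos hs1
  have hsl : s * s = l := Real.mul_self_sqrt hl0.le
  set u := √(κ ^ 2 + 1) + κ with hu
  have hκl : κ < √(κ ^ 2 + l) := Real.lt_sqrt_of_sq_lt (by linarith)
  have hup : √(κ ^ 2 + l) ≤ s + κ := by
    rw [Real.sqrt_le_left (by linarith)]
    nlinarith [mul_nonneg hs0.le hκ]
  have hlow : s ≤ √(κ ^ 2 + l) := by
    rw [hs]; exact Real.sqrt_le_sqrt (by nlinarith [sq_nonneg κ])
  have e2 : √(κ ^ 2 + l) - κ = l / (√(κ ^ 2 + l) + κ) := by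
    rw [eq_div_iff (by linarith)]
    have := Real.mul_self_sqrt (show 0 ≤ κ ^ 2 + l by positivity)
    nlinarith
  have hs1' : 1 ≤ √(κ ^ 2 + 1) := by
    rw [Real.one_le_sqrt]; nlinarith
  have hu1 : 1 ≤ u := by linarith
  have h3 : √(κ ^ 2 + l) ≤ s * √(κ ^ 2 + 1) := by
    rw [Real.sqrt_le_left (by positivity)]
    have h := Real.sq_sqrt (show 0 ≤ κ ^ 2 + 1 by positivity)
    rw [mul_pow, h]
    nlinarith [sq_nonneg κ, mul_nonneg (sq_nonneg κ) (show 0 ≤ l - 1 by linarith)]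
  have h4 : √(κ ^ 2 + l) + κ ≤ s * u := by
    rw [hu, mul_add]
    nlinarith [mul_nonneg hκ (show 0 ≤ s - 1 by linarith)]
  have h5 : s / u ≤ a := by
    refine le_trans ?_ h1
    rw [e2, div_le_div_iff₀ (by linarith) (by linarith)]
    calc s * (√(κ ^ 2 + l) + κ) ≤ s * (s * u) := mul_le_mul_of_nonneg_left h4 hs0.le
      _ = l * u := by rw [← mul_assoc, hsl]
  have ha : 0 < a := lt_of_lt_of_le (by positivity) h5
  set y := a / s - 1 with hy
  have hy1 : 1 + y = a / s := by rw [hy]; ring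
  have hpos : 0 < 1 + y := by rw [hy1]; positivity
  have hlow2 : 1 / u ≤ 1 + y := by
    rw [hy1, div_le_div_iff₀ (by linarith) hs0]
    rw [div_le_iff₀ (by linarith)] at h5
    linarith
  have hlog : Real.log a - Real.log s = Real.log (1 + y) := by
    rw [hy1, Real.log_div ha.ne' hs0.ne']
  rw [hlog]
  have h6 : Real.log (1 + y) ≤ y := by
    have := Real.log_le_sub_one_of_pos hpos
    linarith
  have h7 : y / (1 + y) ≤ Real.log (1 + y) := by
    have := Real.one_sub_inv_le_log_of_pos hpos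
    have e : 1 - (1 + y)⁻¹ = y / (1 + y) := by
      field_simp
      ring
    linarith
  have h8 : y - y / (1 + y) = y ^ 2 / (1 + y) := by
    field_simp
    ring
  have h9 : y ^ 2 / (1 + y) ≤ y ^ 2 * u := by
    rw [div_le_iff₀ hpos]
    have : 1 ≤ u * (1 + y) := by
      rw [div_le_iff₀ (by linarith)] at hlow2
      linarith
    nlinarith [mul_nonneg (sq_nonneg y) (show 0 ≤ u * (1 + y) - 1 by linarith)]
  have h10 : y ^ 2 ≤ 4 * κ ^ 2 / l := by
    have hys : y = (a - s) / s := by rw [hy]; field_simp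
    rw [hys, div_pow, div_le_div_iff₀ (by positivity) hl0]
    have h11 : (a - s) ^ 2 ≤ (2 * κ) ^ 2 := by
      apply sq_le_sq'
      · linarith
      · linarith
    have : s ^ 2 = l := by rw [sq]; exact hsl
    rw [this]
    nlinarith
  have h12 : y ^ 2 * u ≤ 4 * κ ^ 2 * u / l := by
    have := mul_le_mul_of_nonneg_right h10 (show 0 ≤ u by linarith)
    calc y ^ 2 * u ≤ 4 * κ ^ 2 / l * u := this
      _ = _ := by ring
  rw [abs_le]
  constructor
  · linarith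
  · have : 0 ≤ y ^ 2 * u := by positivity
    linarith

theorem sqrt_large (κ l k : ℝ) (hk : 0 ≤ k) (hkκ : k ≤ κ) (hl : 1 ≤ l) :
    |√(k ^ 2 + l) / √l - 1| ≤ κ ^ 2 / l := by
  have hl0 : 0 < l := lt_of_lt_of_le one_pos hl
  set s := √l with hs
  have hs1 : 1 ≤ s := by rw [hs, Real.one_le_sqrt]; exact hl
  have hs0 : 0 < s := lt_of_lt_of_le one_pos hs1
  have hsl : s * s = l := Real.mul_self_sqrt hl0.le
  have hlow : s ≤ √(k ^ 2 + l) := by
    rw [hs]; exact Real.sqrt_le_sqrt (by nlinarith [sq_nonneg k])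
  have hup : √(k ^ 2 + l) ≤ s * (1 + κ ^ 2 / l) := by
    rw [Real.sqrt_le_left (by positivity)]
    have h1 : (s * (1 + κ ^ 2 / l)) ^ 2 = l + 2 * κ ^ 2 + κ ^ 4 / l := by
      rw [mul_pow, sq s, hsl]
      field_simp
      ring
    rw [h1]
    have : 0 ≤ κ ^ 4 / l := by positivity
    nlinarith
  rw [abs_le]
  constructor
  · have : 1 ≤ √(k ^ 2 + l) / s := by rw [le_div_iff₀ hs0]; linarith
    have h2 : 0 ≤ κ ^ 2 / l := by positivity
    linarith
  · have : √(k ^ 2 + l) / s ≤ 1 + κ ^ 2 / l := by rw [div_le_iff₀ hs0]; linarith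
    linarith

theorem one_entry (i j : Fin N) : ‖(1 : Mat N) i j‖ ≤ 1 := by
  rw [Matrix.one_apply]
  split_ifs <;> simp

theorem Dl_small_unif (K : Mat N) (hK : K.PosDef) (κ : ℝ) (hκ0 : 0 ≤ κ)
    (hκ : ∀ i, hK.isHermitian.eigenvalues i ≤ κ) (M : Mat N) (hM : Between K M) (l : ℝ)
    (hl : l ∈ Ioc (0:ℝ) 1) (i j : Fin N) :
    ‖Dl K M l i j‖ ≤ (3 + 2 * Real.log (√(κ ^ 2 + 1) + κ)) * (1 + |Real.log l|) := by
  have hl0 : 0 < l := hl.1
  have hA := (Kl_posDef K M hK hM l hl0).1.isHermitian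
  have hB := (Kl_posDef K M hK hM l hl0).2.isHermitian
  set c := |Real.log l| + Real.log (√(κ ^ 2 + 1) + κ) with hc
  have h1 : ‖cfc Real.log (Kl K l + M) i j‖ ≤ c := by
    rw [fn_cfc hA]
    refine norm_fn_le hA _ c (fun k => ?_) i j
    have := add_bounds hK hM κ hκ l hl0 k
    rw [Complex.norm_real]
    exact log_small κ l _ hκ0 hl this.1 this.2
  have h2 : ‖cfc Real.log (Kl K l - M) i j‖ ≤ c := by
    rw [fn_cfc hB]
    refine norm_fn_le hB _ c (fun k => ?_) i j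
    have := sub_bounds hK hM κ hκ l hl0 k
    rw [Complex.norm_real]
    exact log_small κ l _ hκ0 hl this.1 this.2
  have h3 : ‖(((Real.log l : ℝ) : ℂ) • (1 : Mat N)) i j‖ ≤ |Real.log l| := by
    rw [Matrix.smul_apply, smul_eq_mul, norm_mul, Complex.norm_real]
    exact mul_le_of_le_one_right (norm_nonneg _) (one_entry i j)
  have h4 : Dl K M l i j = cfc Real.log (Kl K l + M) i j + cfc Real.log (Kl K l - M) i j
      - (((Real.log l : ℝ) : ℂ) • (1 : Mat N)) i j := rfl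
  rw [h4]
  have h5 := norm_sub_le (cfc Real.log (Kl K l + M) i j + cfc Real.log (Kl K l - M) i j)
    ((((Real.log l : ℝ) : ℂ) • (1 : Mat N)) i j)
  have h6 := norm_add_le (cfc Real.log (Kl K l + M) i j) (cfc Real.log (Kl K l - M) i j)
  have hs1 : 1 ≤ √(κ ^ 2 + 1) := by
    rw [Real.one_le_sqrt]; nlinarith
  have h7 : 0 ≤ Real.log (√(κ ^ 2 + 1) + κ) := Real.log_nonneg (by linarith)
  have h8 := abs_nonneg (Real.log l)
  nlinarith [mul_nonneg h7 h8]

theorem Dl_split (K M : Mat N) (hK : K.PosDef) (hM : Between K M) (l : ℝ) (hl : 0 < l) :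
    Dl K M l = cfc (fun a : ℝ => Real.log a - Real.log (√l) - (a / √l - 1)) (Kl K l + M)
      + cfc (fun a : ℝ => Real.log a - Real.log (√l) - (a / √l - 1)) (Kl K l - M)
      + (2 : ℂ) • cfc (fun k : ℝ => √(k ^ 2 + l) / √l - 1) K := by
  have hA := (Kl_posDef K M hK hM l hl).1.isHermitian
  have hB := (Kl_posDef K M hK hM l hl).2.isHermitian
  have hlog : Real.log l = 2 * Real.log (√l) := by
    rw [Real.log_sqrt hl.le]; ring
  have key : ∀ {A : Mat N} (hA : A.IsHermitian),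
      cfc (fun a : ℝ => Real.log a - Real.log (√l) - (a / √l - 1)) A
        = cfc Real.log A - ((Real.log (√l) : ℝ) : ℂ) • (1 : Mat N) -
          (((1 / √l : ℝ) : ℂ) • A - (1 : Mat N)) := by
    intro A hA
    rw [fn_cfc hA, fn_cfc hA]
    have e : (fun i => ((Real.log (hA.eigenvalues i) - Real.log (√l) -
        (hA.eigenvalues i / √l - 1) : ℝ) : ℂ)) = fun i =>
        (((Real.log (hA.eigenvalues i) : ℝ) : ℂ) - ((Real.log (√l) : ℝ) : ℂ)) -
        ((((1 / √l : ℝ) : ℂ) * (hA.eigenvalues i : ℂ)) - 1) := by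
      funext i
      push_cast
      ring
    rw [e, fn_sub, fn_sub, fn_sub, fn_smul, fn_eig, fn_const, fn_one]
  have key2 : cfc (fun k : ℝ => √(k ^ 2 + l) / √l - 1) K
      = ((1 / √l : ℝ) : ℂ) • Kl K l - (1 : Mat N) := by
    rw [fn_cfc hK.isHermitian, Kl_eq_fn K hK.isHermitian]
    have e : (fun i => ((√((hK.isHermitian.eigenvalues i) ^ 2 + l) / √l - 1 : ℝ) : ℂ)) = fun i =>
        (((1 / √l : ℝ) : ℂ) * ((√((hK.isHermitian.eigenvalues i) ^ 2 + l) : ℝ) : ℂ)) - 1 := by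
      funext i
      push_cast
      ring
    rw [e, fn_sub, fn_smul, fn_one]
  rw [key hA, key hB, key2]
  unfold Dl Ll
  rw [hlog]
  push_cast
  module

theorem Dl_large_unif (K : Mat N) (hK : K.PosDef) (κ : ℝ) (hκ0 : 0 ≤ κ)
    (hκ : ∀ i, hK.isHermitian.eigenvalues i ≤ κ) (M : Mat N) (hM : Between K M) (l : ℝ)
    (hl : l ∈ Ici (1:ℝ)) (i j : Fin N) :
    ‖Dl K M l i j‖ ≤ (8 * κ ^ 2 * (√(κ ^ 2 + 1) + κ) + 2 * κ ^ 2) / l := by
  have hl0 : 0 < l := lt_of_lt_of_le one_pos hl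
  have hA := (Kl_posDef K M hK hM l hl0).1.isHermitian
  have hB := (Kl_posDef K M hK hM l hl0).2.isHermitian
  set g : ℝ → ℝ := fun a : ℝ => Real.log a - Real.log (√l) - (a / √l - 1) with hg
  set h : ℝ → ℝ := fun k : ℝ => √(k ^ 2 + l) / √l - 1 with hh
  have h1 : ‖cfc g (Kl K l + M) i j‖ ≤ 4 * κ ^ 2 * (√(κ ^ 2 + 1) + κ) / l := by
    rw [fn_cfc hA]
    refine norm_fn_le hA _ _ (fun k => ?_) i j
    have := add_bounds hK hM κ hκ l hl0 k
    rw [Complex.norm_real]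
    exact log_large κ l _ hκ0 hl this.1 this.2
  have h2 : ‖cfc g (Kl K l - M) i j‖ ≤ 4 * κ ^ 2 * (√(κ ^ 2 + 1) + κ) / l := by
    rw [fn_cfc hB]
    refine norm_fn_le hB _ _ (fun k => ?_) i j
    have := sub_bounds hK hM κ hκ l hl0 k
    rw [Complex.norm_real]
    exact log_large κ l _ hκ0 hl this.1 this.2
  have h3 : ‖cfc h K i j‖ ≤ κ ^ 2 / l := by
    rw [fn_cfc hK.isHermitian]
    refine norm_fn_le hK.isHermitian _ _ (fun k => ?_) i j
    rw [Complex.norm_real]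
    exact sqrt_large κ l _ (hK.eigenvalues_pos k).le (hκ k) hl
  have h4 : Dl K M l i j = cfc g (Kl K l + M) i j + cfc g (Kl K l - M) i j
      + 2 * cfc h K i j := by
    rw [Dl_split K M hK hM l hl0]
    rfl
  rw [h4]
  have h5 := norm_add_le (cfc g (Kl K l + M) i j + cfc g (Kl K l - M) i j) (2 * cfc h K i j)
  have h6 := norm_add_le (cfc g (Kl K l + M) i j) (cfc g (Kl K l - M) i j)
  have h7 : ‖2 * cfc h K i j‖ = 2 * ‖cfc h K i j‖ := by
    rw [norm_mul]; norm_num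
  have h8 : (8 * κ ^ 2 * (√(κ ^ 2 + 1) + κ) + 2 * κ ^ 2) / l
      = 4 * κ ^ 2 * (√(κ ^ 2 + 1) + κ) / l + 4 * κ ^ 2 * (√(κ ^ 2 + 1) + κ) / l
        + 2 * (κ ^ 2 / l) := by ring
  rw [h8]
  linarith

theorem unifBd (K : Mat N) (hK : K.PosDef) : UnifBd K := by
  have hκ : ∀ i, hK.isHermitian.eigenvalues i ≤ ∑ k, hK.isHermitian.eigenvalues k := fun i =>
    Finset.single_le_sum (f := fun k => hK.isHermitian.eigenvalues k)
      (fun k _ => (hK.eigenvalues_pos k).le) (Finset.mem_univ i)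
  have hκ0 : 0 ≤ ∑ k, hK.isHermitian.eigenvalues k :=
    Finset.sum_nonneg fun k _ => (hK.eigenvalues_pos k).le
  exact ⟨⟨_, fun M hM l hl i j => Dl_small_unif K hK _ hκ0 hκ M hM l hl i j⟩,
    ⟨_, fun M hM l hl i j => Dl_large_unif K hK _ hκ0 hκ M hM l hl i j⟩⟩

end RRow
end Vale.LT2
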